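import Mathlib

/-! # P246: Bass' stable range theorem for algebras finite over a central noetherian ring -/

namespace Vale.Agent.P246.R2.H407

open Submodule

section
variable {A R : Type} [CommRing A] [Ring R] [Algebra A R]

/-- Away from `p`, `R / J` is generated by `k` elements. -/
def G (J : Submodule A R) (p : Ideal A) (k : ℕ) : Prop :=
  ∃ f : A, f ∉ p ∧ ∃ s : Finset R, s.card ≤ k ∧ ∀ x : R, f • x ∈ span A (s : Set R) ⊔ J

/-- The element `a` vanishes in the fibre of `R / J` at `p`. -/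
def Z (J : Submodule A R) (a : R) (p : Ideal A) : Prop :=
  ∃ f : A, f ∉ p ∧ f • a ∈ p • (⊤ : Submodule A R) ⊔ J

theorem G.mono_J {J J' : Submodule A R} {p : Ideal A} {k : ℕ} (h : J ≤ J') (hG : G J p k) :
    G J' p k := by
  obtain ⟨f, hf, s, hs, hx⟩ := hG
  exact ⟨f, hf, s, hs, fun x => sup_le_sup_left h _ (hx x)⟩

theorem G.mono_p {J : Submodule A R} {p q : Ideal A} {k : ℕ} (h : q ≤ p) (hG : G J p k) :
    G J q k := by
  obtain ⟨f, hf, s, hs, hx⟩ := hG
  exact ⟨f, fun h' => hf (h h'), s, hs, hx⟩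

theorem G.mono_k {J : Submodule A R} {p : Ideal A} {k l : ℕ} (h : k ≤ l) (hG : G J p k) :
    G J p l := by
  obtain ⟨f, hf, s, hs, hx⟩ := hG
  exact ⟨f, hf, s, hs.trans h, hx⟩

theorem Z.mono {J J' : Submodule A R} {a : R} {p : Ideal A} (h : J ≤ J') (hZ : Z J a p) :
    Z J' a p := by
  obtain ⟨f, hf, hx⟩ := hZ
  exact ⟨f, hf, sup_le_sup_left h _ hx⟩

theorem not_Z_G_zero {J : Submodule A R} {p : Ideal A} {y : R} (hZ : ¬ Z J y p)
    (hG : G J p 0) : False := by
  obtain ⟨f, hf, s, hs, hx⟩ := hG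
  have hs0 : s = ∅ := by simpa using hs
  subst hs0
  refine hZ ⟨f, hf, mem_sup_right ?_⟩
  simpa using hx y

theorem L1 {J : Submodule A R} {p : Ideal A} (hp : p.IsPrime) {y : R} {k : ℕ} (hZ : ¬ Z J y p)
    (hG : G J p (k + 1)) : G (J ⊔ span A {y}) p k := by
  classical
  obtain ⟨f, hf, s, hs, hx⟩ := hG
  obtain ⟨u, hu, j, hj, huj⟩ := mem_sup.1 (hx y)
  obtain ⟨c, -, hc⟩ := mem_span_finset.1 hu
  by_cases hall : ∀ m ∈ s, c m ∈ p
  · refine absurd ⟨f, hf, ?_⟩ hZ
    rw [← huj, ← hc]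
    refine add_mem (mem_sup_left (sum_mem fun m hm => ?_)) (mem_sup_right hj)
    exact smul_mem_smul (hall m hm) mem_top
  · push Not at hall
    obtain ⟨m, hm, hcm⟩ := hall
    have h1 : c m • m ∈ span A ((s.erase m : Finset R) : Set R) ⊔ (J ⊔ span A {y}) := by
      have h2 : c m • m = - (∑ x ∈ s.erase m, c x • x) + (- j + f • y) := by
        rw [← huj, ← hc, ← Finset.add_sum_erase s _ hm]
        abel
      rw [h2]
      refine add_mem (mem_sup_left (neg_mem (sum_mem fun x hxs => ?_))) (mem_sup_right ?_)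
      · exact smul_mem _ _ (subset_span hxs)
      · exact add_mem (mem_sup_left (neg_mem hj))
          (mem_sup_right (smul_mem _ _ (mem_span_singleton_self y)))
    refine ⟨c m * f, fun h => (hp.mem_or_mem h).elim hcm hf, s.erase m, ?_, fun x => ?_⟩
    · rw [Finset.card_erase_of_mem hm]
      omega
    · rw [mul_smul]
      obtain ⟨v, hv, j', hj', hvj⟩ := mem_sup.1 (hx x)
      rw [← hvj, smul_add]
      refine add_mem ?_ (smul_mem _ _ (mem_sup_right (mem_sup_left hj')))
      obtain ⟨d, -, hd⟩ := mem_span_finset.1 hv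
      rw [← hd, Finset.smul_sum]
      refine sum_mem fun z hz => ?_
      by_cases hzm : z = m
      · subst hzm
        rw [smul_comm]
        exact smul_mem _ _ h1
      · exact smul_mem _ _ (smul_mem _ _ (mem_sup_left (subset_span (by simp [hz, hzm]))))

theorem L2 {J : Submodule A R} {q : Ideal A} (hq : q.IsPrime) {a : R} {k : ℕ} (hZ : Z J a q)
    (hG : G (J ⊔ span A {a}) q k) : G J q k := by
  obtain ⟨f, hf, hfa⟩ := hZ
  obtain ⟨g, hg, s, hs, hx⟩ := hG
  have key : ∀ x : R, ∃ c : A, g • x - c • a ∈ span A (s : Set R) ⊔ J := by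
    intro x
    obtain ⟨v, hv, w, hw, hvw⟩ := mem_sup.1 (hx x)
    obtain ⟨j, hj, z, hz, hjz⟩ := mem_sup.1 hw
    obtain ⟨c, hc⟩ := mem_span_singleton.1 hz
    refine ⟨c, ?_⟩
    rw [← hvw, ← hjz, hc]
    have : v + (j + z) - z = v + j := by abel
    rw [this]
    exact add_mem (mem_sup_left hv) (mem_sup_right hj)
  have key2 : ∀ w ∈ q • (⊤ : Submodule A R), ∃ c ∈ q, g • w - c • a ∈ span A (s : Set R) ⊔ J := by
    intro w hw
    refine Submodule.smul_induction_on hw (fun r hr x _ => ?_) (fun x y hx' hy' => ?_)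
    · obtain ⟨c, hc⟩ := key x
      refine ⟨r * c, q.mul_mem_right _ hr, ?_⟩
      have : g • r • x - (r * c) • a = r • (g • x - c • a) := by
        rw [smul_sub, mul_smul, smul_comm]
      rw [this]
      exact smul_mem _ _ hc
    · obtain ⟨c, hcq, hc⟩ := hx'
      obtain ⟨d, hdq, hd⟩ := hy'
      refine ⟨c + d, add_mem hcq hdq, ?_⟩
      have : g • (x + y) - (c + d) • a = (g • x - c • a) + (g • y - d • a) := by
        rw [smul_add, add_smul]
        abel
      rw [this]
      exact add_mem hc hd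
  obtain ⟨w, hw, j, hj, hwj⟩ := mem_sup.1 hfa
  obtain ⟨c, hcq, hc⟩ := key2 w hw
  have h1 : (g * f - c) • a ∈ span A (s : Set R) ⊔ J := by
    have : (g * f - c) • a = (g • w - c • a) + g • j := by
      rw [sub_smul, mul_smul, ← hwj, smul_add]
      abel
    rw [this]
    exact add_mem hc (smul_mem _ _ (mem_sup_right hj))
  refine ⟨(g * f - c) * g, fun h => ?_, s, hs, fun x => ?_⟩
  · rcases hq.mem_or_mem h with h | h
    · have h2 : g * f ∈ q := by
        have := add_mem h hcq
        rwa [sub_add_cancel] at this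
      exact (hq.mem_or_mem h2).elim hg hf
    · exact hg h
  · obtain ⟨e, he⟩ := key x
    have : ((g * f - c) * g) • x = (g * f - c) • (g • x - e • a) + e • ((g * f - c) • a) := by
      rw [smul_sub, mul_smul, smul_comm e]
      abel
    rw [this]
    exact add_mem (smul_mem _ _ he) (smul_mem _ _ h1)

theorem Z.sub {J : Submodule A R} {p : Ideal A} (hp : p.IsPrime) {x y : R} (hx : Z J x p)
    (hy : Z J y p) : Z J (x - y) p := by
  obtain ⟨f, hf, hfx⟩ := hx
  obtain ⟨g, hg, hgy⟩ := hy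
  refine ⟨f * g, fun h => (hp.mem_or_mem h).elim hf hg, ?_⟩
  have : (f * g) • (x - y) = g • (f • x) - f • (g • y) := by
    rw [smul_sub, mul_smul, mul_smul, smul_comm f g x]
  rw [this]
  exact sub_mem (smul_mem _ _ hfx) (smul_mem _ _ hgy)

theorem Z.of_mem {J : Submodule A R} {p : Ideal A} (hp : p.IsPrime) {u : A} (hu : u ∈ p)
    (a : R) : Z J (u • a) p :=
  ⟨1, fun h => hp.ne_top ((Ideal.eq_top_iff_one _).2 h),
    smul_mem _ _ (mem_sup_left (smul_mem_smul hu mem_top))⟩

theorem Z.of_smul {J : Submodule A R} {p : Ideal A} (hp : p.IsPrime) {u : A} (hu : u ∉ p)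
    {a : R} (h : Z J (u • a) p) : Z J a p := by
  obtain ⟨f, hf, hfa⟩ := h
  refine ⟨f * u, fun h => (hp.mem_or_mem h).elim hf hu, ?_⟩
  rwa [mul_smul]

/-- The choice of the central multiplier. -/
theorem exists_t {J : Submodule A R} (a y : R) (C : Finset (Ideal A))
    (hC : ∀ p ∈ C, p.IsPrime) (hCa : ∀ p ∈ C, ¬ Z J a p) :
    ∃ t : A, ∀ p ∈ C, ¬ Z J (y + t • a) p := by
  classical
  induction C using Finset.strongInduction with
  | H C ih =>
    rcases C.eq_empty_or_nonempty with rfl | hne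
    · exact ⟨0, by simp⟩
    · obtain ⟨p, hpC, hpmin⟩ := C.exists_minimal hne
      obtain ⟨t, ht⟩ := ih (C.erase p) (Finset.erase_ssubset hpC)
        (fun q hq => hC q (Finset.mem_of_mem_erase hq))
        (fun q hq => hCa q (Finset.mem_of_mem_erase hq))
      have hp := hC p hpC
      by_cases hZ : Z J (y + t • a) p
      · have hu : ∃ u : A, (∀ q ∈ C.erase p, u ∈ q) ∧ u ∉ p := by
          by_contra hcon
          push Not at hcon
          have h1 : (C.erase p).inf id ≤ p := by
            intro u hu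
            refine hcon u fun q hq => ?_
            exact (Finset.inf_le hq : (C.erase p).inf id ≤ id q) hu
          obtain ⟨q, hq, hqp⟩ := (hp.inf_le').1 h1
          have hqC := Finset.mem_of_mem_erase hq
          have h3 := hpmin hqC hqp
          exact (Finset.ne_of_mem_erase hq) (le_antisymm hqp h3)
        obtain ⟨u, hu, hup⟩ := hu
        refine ⟨t + u, fun q hq hZq => ?_⟩
        by_cases hqp : q = p
        · subst hqp
          have h1 := hZq.sub hp hZ
          have h2 : y + (t + u) • a - (y + t • a) = u • a := by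
            rw [add_smul]
            abel
          rw [h2] at h1
          exact hCa q hq (h1.of_smul hp hup)
        · have hq' : q ∈ C.erase p := Finset.mem_erase.2 ⟨hqp, hq⟩
          have h1 := hZq.sub (hC q hq) (Z.of_mem (J := J) (hC q hq) (hu q hq') a)
          have h2 : y + (t + u) • a - u • a = y + t • a := by
            rw [add_smul]
            abel
          rw [h2] at h1
          exact ht q hq' h1
      · refine ⟨t, fun q hq => ?_⟩
        by_cases hqp : q = p
        · subst hqp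
          exact hZ
        · exact ht q (Finset.mem_erase.2 ⟨hqp, hq⟩)

/-- The invariant of the construction. -/
def Inv (J : Submodule A R) (a : R) (h : Ideal A → ℕ) (m i : ℕ) : Prop :=
  ∀ p : Ideal A, p.IsPrime → Z J a p ∨ ∃ k, G J p k ∧ k + i ≤ m * (1 + h p)

/-- The critical primes. -/
def Crit (J : Submodule A R) (a : R) (h : Ideal A → ℕ) (m i : ℕ) (p : Ideal A) : Prop :=
  p.IsPrime ∧ ¬ Z J a p ∧ ¬ ∃ k, G J p k ∧ k + (i + 1) ≤ m * (1 + h p)

/-- The ideal whose primes are those at which `R / J` needs more than `k` generators. -/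
def badIdeal (J : Submodule A R) (k : ℕ) : Ideal A :=
  Ideal.span {f : A | ∃ s : Finset R, s.card ≤ k ∧ ∀ x : R, f • x ∈ span A (s : Set R) ⊔ J}

theorem badIdeal_le {J : Submodule A R} {k : ℕ} {p : Ideal A} :
    badIdeal J k ≤ p ↔ ¬ G J p k := by
  rw [badIdeal, Ideal.span_le]
  constructor
  · rintro h ⟨f, hf, s, hs, hx⟩
    exact hf (h ⟨s, hs, hx⟩)
  · rintro h f ⟨s, hs, hx⟩
    by_contra hf
    exact h ⟨f, hf, s, hs, hx⟩

theorem crit_exists {J : Submodule A R} {a : R} {h : Ideal A → ℕ} {m i : ℕ}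
    (hInv : Inv J a h m i) {p : Ideal A} (hp : Crit J a h m i p) :
    ∃ k, G J p (k + 1) ∧ ¬ G J p k ∧ k + (i + 1) = m * (1 + h p) := by
  obtain ⟨hpp, hZ, hno⟩ := hp
  obtain ⟨k, hG, hk⟩ := (hInv p hpp).resolve_left hZ
  rcases k with _ | k
  · exact (not_Z_G_zero hZ hG).elim
  · have h1 : ¬ (k + 1 + (i + 1) ≤ m * (1 + h p)) := fun h2 => hno ⟨k + 1, hG, h2⟩
    have h2 : k + (i + 1) = m * (1 + h p) := by omega
    exact ⟨k, hG, fun h3 => hno ⟨k, h3, h2.le⟩, h2⟩

theorem crit_minimal {J : Submodule A R} {a : R} {h : Ideal A → ℕ} {m i : ℕ} (hm : 1 ≤ m)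
    (hmono : ∀ p q : Ideal A, p.IsPrime → q.IsPrime → q < p → h q + 1 ≤ h p)
    (hInv : Inv J a h m i) {p : Ideal A} (hp : Crit J a h m i p) :
    p ∈ (badIdeal J (m * (1 + h p) - (i + 1))).minimalPrimes := by
  obtain ⟨k, hG, hnG, hk⟩ := crit_exists hInv hp
  have hk' : m * (1 + h p) - (i + 1) = k := by omega
  rw [hk']
  refine ⟨⟨hp.1, badIdeal_le.2 hnG⟩, ?_⟩
  rintro q ⟨hq, hqk⟩ hqp
  by_contra hne
  have hlt : q < p := lt_of_le_not_ge hqp hne
  have hnq : ¬ G J q k := badIdeal_le.1 hqk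
  have hZq : Z J a q := by
    rcases hInv q hq with hz | ⟨l, hl, hle⟩
    · exact hz
    · refine (hnq (hl.mono_k ?_)).elim
      have h1 := hmono p q hp.1 hq hlt
      have h2 : m * (1 + h q) + m ≤ m * (1 + h p) := by
        calc m * (1 + h q) + m = m * (1 + (h q + 1)) := by ring
          _ ≤ m * (1 + h p) := Nat.mul_le_mul_left m (by omega)
      omega
  exact hnq (L2 hq hZq ((L1 hp.1 hp.2.1 hG).mono_p hqp))

theorem crit_finite [IsNoetherianRing A] {J : Submodule A R} {a : R} {h : Ideal A → ℕ}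
    {m i d : ℕ} (hm : 1 ≤ m)
    (hd : ∀ p : Ideal A, p.IsPrime → h p ≤ d)
    (hmono : ∀ p q : Ideal A, p.IsPrime → q.IsPrime → q < p → h q + 1 ≤ h p)
    (hInv : Inv J a h m i) : {p : Ideal A | Crit J a h m i p}.Finite := by
  have h1 : (⋃ e ∈ Set.Iic d,
      ((badIdeal J (m * (1 + e) - (i + 1))).minimalPrimes : Set (Ideal A))).Finite :=
    (Set.finite_Iic d).biUnion fun e _ => Ideal.finite_minimalPrimes_of_isNoetherianRing A _
  refine h1.subset fun p hp => ?_
  exact Set.mem_biUnion (show h p ∈ Set.Iic d from hd p hp.1) (crit_minimal hm hmono hInv hp)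

theorem step [IsNoetherianRing A] {J : Submodule A R} {a : R} {h : Ideal A → ℕ}
    {m i d : ℕ} (hm : 1 ≤ m)
    (hd : ∀ p : Ideal A, p.IsPrime → h p ≤ d)
    (hmono : ∀ p q : Ideal A, p.IsPrime → q.IsPrime → q < p → h q + 1 ≤ h p)
    (hInv : Inv J a h m i) (y : R) :
    ∃ t : A, ∀ J' : Submodule A R, J ≤ J' → y + t • a ∈ J' → Inv J' a h m (i + 1) := by
  have hfin := crit_finite hm hd hmono hInv
  obtain ⟨t, ht⟩ := exists_t (J := J) a y hfin.toFinset
    (fun p hp => (hfin.mem_toFinset.1 hp).1) (fun p hp => (hfin.mem_toFinset.1 hp).2.1)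
  refine ⟨t, fun J' hJ hy p hp => ?_⟩
  by_cases hZ : Z J a p
  · exact Or.inl (hZ.mono hJ)
  by_cases hc : Crit J a h m i p
  · obtain ⟨k, hG, -, hk⟩ := crit_exists hInv hc
    refine Or.inr ⟨k, (L1 hp (ht p (hfin.mem_toFinset.2 hc)) hG).mono_J ?_, hk.le⟩
    exact sup_le hJ ((span_singleton_le_iff_mem _ _).2 hy)
  · have h1 : ∃ k, G J p k ∧ k + (i + 1) ≤ m * (1 + h p) := by
      by_contra hno
      exact hc ⟨hp, hZ, hno⟩
    obtain ⟨k, hG, hk⟩ := h1
    exact Or.inr ⟨k, hG.mono_J hJ, hk⟩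

/-- The right ideals of the construction. -/
def Js (y : ℕ → R) (t : ℕ → A) (a : R) (i : ℕ) : Submodule A R :=
  LinearMap.range (∑ j ∈ Finset.range i,
    (LinearMap.mulLeft A (y j + t j • a)) ∘ₗ (LinearMap.proj j : (ℕ → R) →ₗ[A] R))

theorem mem_Js {y : ℕ → R} {t : ℕ → A} {a : R} {i : ℕ} {x : R} :
    x ∈ Js y t a i ↔ ∃ v : ℕ → R, ∑ j ∈ Finset.range i, (y j + t j • a) * v j = x := by
  simp [Js, LinearMap.mem_range, LinearMap.sum_apply]

theorem Js_congr {y : ℕ → R} {t t' : ℕ → A} {a : R} {i : ℕ} (h : ∀ j < i, t j = t' j) :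
    Js y t a i = Js y t' a i := by
  ext x
  rw [mem_Js, mem_Js]
  refine exists_congr fun v => ?_
  rw [Finset.sum_congr rfl fun j hj => by rw [h j (Finset.mem_range.1 hj)]]

theorem Js_mono {y : ℕ → R} {t : ℕ → A} {a : R} {i : ℕ} : Js y t a i ≤ Js y t a (i + 1) := by
  intro x hx
  rw [mem_Js] at hx ⊢
  obtain ⟨v, hv⟩ := hx
  refine ⟨Function.update v i 0, ?_⟩
  rw [Finset.sum_range_succ, Function.update_self, mul_zero, add_zero, ← hv]
  refine Finset.sum_congr rfl fun j hj => ?_
  rw [Function.update_of_ne (Finset.mem_range.1 hj).ne]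

theorem self_mem_Js {y : ℕ → R} {t : ℕ → A} {a : R} {i j : ℕ} (hj : j < i) :
    y j + t j • a ∈ Js y t a i := by
  rw [mem_Js]
  refine ⟨Pi.single j 1, ?_⟩
  rw [Finset.sum_eq_single j]
  · simp
  · intro k _ hk
    simp [hk]
  · intro h
    exact absurd (Finset.mem_range.2 hj) h

theorem Js_mul {y : ℕ → R} {t : ℕ → A} {a : R} {i : ℕ} {x : R} (hx : x ∈ Js y t a i) (r : R) :
    x * r ∈ Js y t a i := by
  rw [mem_Js] at hx ⊢
  obtain ⟨v, hv⟩ := hx
  refine ⟨fun j => v j * r, ?_⟩
  rw [← hv, Finset.sum_mul]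
  exact Finset.sum_congr rfl fun j _ => (mul_assoc _ _ _).symm

theorem exists_seq [IsNoetherianRing A] {a : R} {h : Ideal A → ℕ}
    {m d : ℕ} (hm : 1 ≤ m) (hgen : ∃ s : Finset R, s.card ≤ m ∧ span A (s : Set R) = ⊤)
    (hd : ∀ p : Ideal A, p.IsPrime → h p ≤ d)
    (hmono : ∀ p q : Ideal A, p.IsPrime → q.IsPrime → q < p → h q + 1 ≤ h p)
    (y : ℕ → R) (i : ℕ) : ∃ t : ℕ → A, Inv (Js y t a i) a h m i := by
  induction i with
  | zero =>
    refine ⟨0, fun p hp => Or.inr ⟨m, ?_, ?_⟩⟩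
    · obtain ⟨s, hs, hsp⟩ := hgen
      refine ⟨1, fun h => hp.ne_top ((Ideal.eq_top_iff_one _).2 h), s, hs, fun x => ?_⟩
      rw [hsp, top_sup_eq]
      exact mem_top
    · rw [add_zero]
      exact Nat.le_mul_of_pos_right m (by omega)
  | succ i ih =>
    obtain ⟨t, ht⟩ := ih
    obtain ⟨u, hu⟩ := step hm hd hmono ht (y i)
    refine ⟨Function.update t i u, hu _ ?_ ?_⟩
    · have h1 : Js y t a i = Js y (Function.update t i u) a i :=
        Js_congr fun j hj => by rw [Function.update_of_ne hj.ne]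
      rw [h1]
      exact Js_mono
    · have h1 := self_mem_Js (y := y) (t := Function.update t i u) (a := a) (Nat.lt_succ_self i)
      rwa [Function.update_self] at h1

theorem G_of_all_Z {J : Submodule A R} {p : Ideal A} (hp : p.IsPrime) (hZ : ∀ x, Z J x p)
    {k : ℕ} (hG : G J p k) : G J p 0 := by
  classical
  induction k with
  | zero => exact hG
  | succ k ih =>
    refine ih ?_
    obtain ⟨f, hf, s, hs, hx⟩ := hG
    by_cases hsk : s.card ≤ k
    · exact ⟨f, hf, s, hsk, hx⟩
    · have hne : s.Nonempty := by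
        rw [← Finset.card_pos]
        omega
      obtain ⟨z, hz⟩ := hne
      refine L2 hp (hZ z) ⟨f, hf, s.erase z, ?_, fun x => ?_⟩
      · rw [Finset.card_erase_of_mem hz]
        omega
      · have h1 : span A (s : Set R) ≤ span A ((s.erase z : Finset R) : Set R) ⊔ span A {z} := by
          rw [span_le]
          intro w hw
          by_cases hwz : w = z
          · subst hwz
            exact mem_sup_right (mem_span_singleton_self w)
          · exact mem_sup_left (subset_span (by simpa [hwz] using hw))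
        have h2 : span A (s : Set R) ⊔ J ≤
            span A ((s.erase z : Finset R) : Set R) ⊔ (J ⊔ span A {z}) := by
          refine sup_le (h1.trans (sup_le_sup_left le_sup_right _)) ?_
          exact le_sup_left.trans le_sup_right
        exact h2 (hx x)

theorem bass_aux [IsNoetherianRing A] {a : R} {h : Ideal A → ℕ}
    {m d : ℕ} (hm : 1 ≤ m) (hgen : ∃ s : Finset R, s.card ≤ m ∧ span A (s : Set R) = ⊤)
    (hd : ∀ p : Ideal A, p.IsPrime → h p ≤ d)
    (hmono : ∀ p q : Ideal A, p.IsPrime → q.IsPrime → q < p → h q + 1 ≤ h p)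
    (y : ℕ → R) (b : ℕ → R) (c : R)
    (hyb : ∑ j ∈ Finset.range (m * (1 + d)), y j * b j + a * c = 1) :
    ∃ (t : ℕ → A) (v : ℕ → R),
      ∑ j ∈ Finset.range (m * (1 + d)), (y j + t j • a) * v j = 1 := by
  obtain ⟨t, ht⟩ := exists_seq (a := a) hm hgen hd hmono y (m * (1 + d))
  refine ⟨t, mem_Js.1 ?_⟩
  set J := Js y t a (m * (1 + d)) with hJ
  -- `a` vanishes in all fibres
  have hZa : ∀ p : Ideal A, p.IsPrime → Z J a p := by
    intro p hp
    by_contra hZ
    obtain ⟨k, hG, hk⟩ := (ht p hp).resolve_left hZ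
    have h1 : m * (1 + h p) ≤ m * (1 + d) := Nat.mul_le_mul_left m (by have := hd p hp; omega)
    have h2 : k = 0 := by omega
    subst h2
    exact not_Z_G_zero hZ hG
  -- every element vanishes in all fibres
  have hR : ∀ x : R, ∃ j ∈ J, ∃ r : R, x = j + a * r := by
    intro x
    refine ⟨∑ j ∈ Finset.range (m * (1 + d)), (y j + t j • a) * (b j * x), mem_Js.2 ⟨_, rfl⟩,
      (c - ∑ j ∈ Finset.range (m * (1 + d)), t j • b j) * x, ?_⟩
    have h1 : x = (∑ j ∈ Finset.range (m * (1 + d)), y j * b j + a * c) * x := by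
      rw [hyb, one_mul]
    conv_lhs => rw [h1]
    rw [sub_mul, mul_sub, add_mul, Finset.sum_mul, Finset.sum_mul, Finset.mul_sum]
    have h2 : ∑ j ∈ Finset.range (m * (1 + d)), (y j + t j • a) * (b j * x) =
        ∑ j ∈ Finset.range (m * (1 + d)), y j * b j * x +
        ∑ j ∈ Finset.range (m * (1 + d)), a * (t j • b j * x) := by
      rw [← Finset.sum_add_distrib]
      refine Finset.sum_congr rfl fun j _ => ?_
      rw [add_mul, smul_mul_assoc, smul_mul_assoc, mul_smul_comm, mul_assoc]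
    rw [h2, mul_assoc]
    abel
  have hZ : ∀ p : Ideal A, p.IsPrime → ∀ x : R, Z J x p := by
    intro p hp x
    obtain ⟨f, hf, hfa⟩ := hZa p hp
    obtain ⟨j, hj, r, rfl⟩ := hR x
    refine ⟨f, hf, ?_⟩
    rw [smul_add]
    refine add_mem (smul_mem _ _ (mem_sup_right hj)) ?_
    obtain ⟨w, hw, j', hj', hwj⟩ := mem_sup.1 hfa
    rw [← smul_mul_assoc, ← hwj, add_mul]
    refine add_mem (mem_sup_left ?_) (mem_sup_right (Js_mul hj' r))
    refine Submodule.smul_induction_on hw (fun s hs z _ => ?_) (fun z z' hz hz' => ?_)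
    · rw [smul_mul_assoc]
      exact smul_mem_smul hs mem_top
    · rw [add_mul]
      exact add_mem hz hz'
  by_contra h1
  have hne : J.comap (Algebra.linearMap A R) ≠ ⊤ := by
    intro htop
    have : (1 : A) ∈ J.comap (Algebra.linearMap A R) := by rw [htop]; exact mem_top
    rw [Submodule.mem_comap, Algebra.linearMap_apply, map_one] at this
    exact h1 this
  obtain ⟨p, hpm, hle⟩ := Ideal.exists_le_maximal _ hne
  have hp := hpm.isPrime
  have hG : G J p m := by
    obtain ⟨s, hs, hsp⟩ := hgen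
    refine ⟨1, fun h => hp.ne_top ((Ideal.eq_top_iff_one _).2 h), s, hs, fun x => ?_⟩
    rw [hsp, top_sup_eq]
    exact mem_top
  obtain ⟨f, hf, s, hs, hx⟩ := G_of_all_Z hp (hZ p hp) hG
  have hs0 : s = ∅ := by simpa using hs
  subst hs0
  refine hf (hle ?_)
  rw [Submodule.mem_comap, Algebra.linearMap_apply, Algebra.algebraMap_eq_smul_one]
  simpa using hx 1

end

/-- **Bass' stable range theorem**, for an algebra which is finite over a noetherian ring of finite
dimension in its centre. -/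
theorem bass0 (A R : Type) [CommRing A] [IsNoetherianRing A] [Ring R] [Algebra A R]
    [Module.Finite A R] (d : ℕ) (hd : ∀ p : Ideal A, p.IsPrime → p.height ≤ d) :
    ∃ n : ℕ, 1 ≤ n ∧ ∀ (y : Fin n → R) (a : R),
      (∃ (b : Fin n → R) (c : R), ∑ i, y i * b i + a * c = 1) →
        ∃ t v : Fin n → R, ∑ i, (y i + a * t i) * v i = 1 := by
  classical
  obtain ⟨s, hs⟩ := (Module.Finite.fg_top : (⊤ : Submodule A R).FG)
  set m := s.card + 1 with hm
  refine ⟨m * (1 + d), Nat.mul_pos (by omega) (by omega), ?_⟩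
  rintro y a ⟨b, c, hyb⟩
  have hfin : ∀ p : Ideal A, p.IsPrime → ((p.height.toNat : ℕ) : ℕ∞) = p.height := by
    intro p hp
    refine ENat.natCast_toNat ?_
    exact ne_top_of_le_ne_top (ENat.natCast_ne_top d) (hd p hp)
  obtain ⟨t, v, htv⟩ := bass_aux (A := A) (R := R) (a := a) (h := fun p => p.height.toNat)
    (m := m) (d := d) (by omega) ⟨s, by omega, hs⟩
    (fun p hp => by
      have h1 := hd p hp
      rw [← hfin p hp] at h1
      exact_mod_cast h1)
    (fun p q hp hq hlt => by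
      have h1 := Ideal.height_add_one_le_of_lt_of_isPrime hlt
      rw [← hfin p hp, ← hfin q hq] at h1
      exact_mod_cast h1)
    (fun j => if hj : j < m * (1 + d) then y ⟨j, hj⟩ else 0)
    (fun j => if hj : j < m * (1 + d) then b ⟨j, hj⟩ else 0) c
    (by
      rw [← hyb, Finset.sum_range]
      simp)
  refine ⟨fun j => algebraMap A R (t j), fun j => v j, ?_⟩
  rw [← htv, Finset.sum_range]
  refine Finset.sum_congr rfl fun j _ => ?_
  simp only [Fin.is_lt, dif_pos, Fin.eta]
  rw [← Algebra.commutes, ← Algebra.smul_def]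

end Vale.Agent.P246.R2.H407
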