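import Vale.Agent.P246.R2.H429.Defs
import Vale.Agent.P246.R2.H407.Bass0

/-! # P246: ROW B of the stable range theorem -/

namespace Vale.Agent.P246.R2.H407

/-- ROW B: Bass' stable range theorem. -/
theorem bass : Vale.Agent.P246.H429.SpecBass := by
  intro A R _ _ _ _ _ d hd
  exact bass0 A R d hd

end Vale.Agent.P246.R2.H407
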